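import Mathlib
import Vale.Agent.Lib.P205.Twist

namespace Vale.Agent.Results.P205.A_CircleInvariantTorus

open scoped ContDiff
open Real

/-- Every smooth Riemannian metric `A(t) dt² + 2 B(t) dt dθ + C(t) dθ²` on the torus
`ℝ² / (L ℤ × 2π ℤ)` (that is, every metric invariant under the circle action by translations
in `θ`) is induced by a smooth doubly periodic map of the plane into Euclidean four-space:
the torus with this metric has a smooth isometric immersion into `ℝ⁴`. -/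
theorem result : ∀ (L : ℝ) (A B C : ℝ → ℝ), 0 < L →
    ContDiff ℝ ∞ A → ContDiff ℝ ∞ B → ContDiff ℝ ∞ C →
    (∀ t, A (t + L) = A t) → (∀ t, B (t + L) = B t) → (∀ t, C (t + L) = C t) →
    (∀ t, 0 < C t) → (∀ t, 0 < A t * C t - B t ^ 2) →
    ∃ F : ℝ × ℝ → EuclideanSpace ℝ (Fin 4), ContDiff ℝ ∞ F ∧
      (∀ t θ : ℝ, F (t + L, θ) = F (t, θ)) ∧ (∀ t θ : ℝ, F (t, θ + 2 * π) = F (t, θ)) ∧
      ∀ p v w : ℝ × ℝ, inner ℝ (fderiv ℝ F p v) (fderiv ℝ F p w) =
        A p.1 * (v.1 * w.1) + B p.1 * (v.1 * w.2 + v.2 * w.1) + C p.1 * (v.2 * w.2) := by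
  intro L A B C hL hA hB hC hAp hBp hCp hCpos hdet
  exact Vale.Agent.Lib.P205.exists_immersion_circle_invariant L hL A B C hA hB hC hAp hBp hCp
    hCpos hdet

end Vale.Agent.Results.P205.A_CircleInvariantTorus
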