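import Mathlib
import Vale.Agent.Lib.P205.Main

namespace Vale.Agent.Results.P205.B_RationalTwistTorus

open scoped ContDiff
open Real

/-- Every smooth positive definite metric `A(t) dt² + 2 B(t) dt dθ + C(t) dθ²` on the torus
`ℝ² / (L ℤ × 2π ℤ)` (a metric invariant under the circle action by translations in `θ`)
whose twist `∫₀ᴸ B/C` is a rational multiple of `2π` is induced by a smooth doubly periodic
map of the plane into Euclidean four-space. -/
theorem result : ∀ (L : ℝ) (A B C : ℝ → ℝ), 0 < L →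
    ContDiff ℝ ∞ A → ContDiff ℝ ∞ B → ContDiff ℝ ∞ C →
    (∀ t, A (t + L) = A t) → (∀ t, B (t + L) = B t) → (∀ t, C (t + L) = C t) →
    (∀ t, 0 < C t) → (∀ t, 0 < A t * C t - B t ^ 2) →
    (∃ n : ℕ, 0 < n ∧ ∃ j : ℤ, (n : ℝ) * ∫ t in (0:ℝ)..L, B t / C t = j * (2 * π)) →
    ∃ F : ℝ × ℝ → EuclideanSpace ℝ (Fin 4), ContDiff ℝ ∞ F ∧
      (∀ t θ : ℝ, F (t + L, θ) = F (t, θ)) ∧ (∀ t θ : ℝ, F (t, θ + 2 * π) = F (t, θ)) ∧
      ∀ p v w : ℝ × ℝ, inner ℝ (fderiv ℝ F p v) (fderiv ℝ F p w) =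
        A p.1 * (v.1 * w.1) + B p.1 * (v.1 * w.2 + v.2 * w.1) + C p.1 * (v.2 * w.2) := by
  intro L A B C hL hA hB hC hAp hBp hCp hCpos hdet htw
  obtain ⟨n, hn, j, hj⟩ := htw
  exact Vale.Agent.Lib.P205.exists_immersion_of_rational_twist L hL A B C hA hB hC hAp hBp hCp
    hCpos hdet n hn j hj

end Vale.Agent.Results.P205.B_RationalTwistTorus
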