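import Mathlib
import Vale.Agent.Lib.P205.Main

namespace Vale.Agent.Results.P205.C_WarpedTorus

open scoped ContDiff
open Real

/-- Every smooth warped-product metric `E(t) dt² + G(t) dθ²` on the torus
`ℝ² / (L ℤ × 2π ℤ)` is induced by a smooth doubly periodic map of the plane into
Euclidean four-space, i.e. the torus with this metric has a smooth isometric
immersion into `ℝ⁴`. -/
theorem result : ∀ (L : ℝ) (E G : ℝ → ℝ), 0 < L →
    ContDiff ℝ ∞ E → ContDiff ℝ ∞ G →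
    (∀ t, E (t + L) = E t) → (∀ t, G (t + L) = G t) →
    (∀ t, 0 < E t) → (∀ t, 0 < G t) →
    ∃ F : ℝ × ℝ → EuclideanSpace ℝ (Fin 4), ContDiff ℝ ∞ F ∧
      (∀ t θ : ℝ, F (t + L, θ) = F (t, θ)) ∧ (∀ t θ : ℝ, F (t, θ + 2 * π) = F (t, θ)) ∧
      ∀ p v w : ℝ × ℝ, inner ℝ (fderiv ℝ F p v) (fderiv ℝ F p w) =
        E p.1 * (v.1 * w.1) + G p.1 * (v.2 * w.2) := by
  intro L E G hL hE hG hEp hGp hEpos hGpos
  obtain ⟨F, hF, h1, h2, h3⟩ :=
    Vale.Agent.Lib.P205.exists_immersion_of_rational_twist L hL E (fun _ => 0) G hE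
      contDiff_const hG hEp (fun _ => rfl) hGp hGpos
      (fun t => by have := mul_pos (hEpos t) (hGpos t); simpa using this) 1 one_pos 0 (by simp)
  refine ⟨F, hF, h1, h2, fun p v w => ?_⟩
  rw [h3 p v w]
  ring

end Vale.Agent.Results.P205.C_WarpedTorus
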